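import Vale.Agent.P233.RA.IfST

/-! P233, stage 3: Theorem N with a density function `θ : M → ℝ` (PartN2, owner helper994, deputies
helper883, helper254): definitions. Text of `NSp2`: helper994, note 11432. Everything that does not
mention `θ` is taken from `RA`. -/

set_option linter.all false

open MeasureTheory Filter Topology Set
open scoped ENNReal NNReal MeasureTheory

universe u

namespace Vale.Agent.P233.N2

open Vale.Agent.P233.RA

section

variable {M : Type u} [MetricSpace M] [MeasurableSpace M]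

/-- Hypotheses of Theorem N with a density function: a proper geodesic space with quadratic Cheeger
energy, Laplacian comparison with the constants `n`, `K`, and density `θ(x)` at almost every `x`. -/
structure NSp2 (m : Measure M) (n : ℕ) (K : ℝ) (θ : M → ℝ) : Prop where
  n_pos : 0 < n
  proper : ProperSpace M
  geo : Gig.Geo M
  full : m.IsOpenPosMeasure
  fin : ∀ (x : M) (r : ℝ), m (Metric.ball x r) < ∞
  /-- exponential growth -/
  growth : ∃ (x₀ : M) (c : ℝ), ∀ r > 0, m (Metric.ball x₀ r) ≤ ENNReal.ofReal (c * Real.exp (c * r))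
  upper : ∀ (x₀ : M) (R : ℝ), ∃ c : ℝ, ∀ x ∈ Metric.ball x₀ R, ∀ r, 0 < r → r ≤ 1 →
    m (Metric.ball x r) ≤ ENNReal.ofReal (c * r ^ n)
  doubling : ∀ (x₀ : M) (R : ℝ), ∃ c : ℝ≥0, ∀ x ∈ Metric.ball x₀ R, ∀ r, 0 < r → r ≤ 1 →
    m (Metric.ball x (2 * r)) ≤ c * m (Metric.ball x r)
  th_meas : Measurable θ
  th_bd : ∀ (x₀ : M) (R : ℝ), ∃ c : ℝ, 0 < c ∧ ∀ x ∈ Metric.ball x₀ R, c ≤ θ x ∧ θ x ≤ c⁻¹
  dens : ∀ᵐ x ∂m, Tendsto (fun r : ℝ => (m (Metric.ball x r)).toReal / r ^ n) (𝓝[>] 0) (𝓝 (θ x))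
  quadratic : ∀ f ∈ (sob m).W, ∀ g ∈ (sob m).W,
    ∫ x, (slope (f + g) ^ 2) x ∂m + ∫ x, (slope (f - g) ^ 2) x ∂m
      = 2 * ∫ x, (slope f ^ 2) x ∂m + 2 * ∫ x, (slope g ^ 2) x ∂m
  s2l : ∀ f ∈ (sob m).W, slope f ≤ 1 → ∃ u : M → ℝ, LipschitzWith 1 u ∧ f =ᵐ[m] u
  /-- `|∇d_p| = 1` -/
  ww_grad : ∀ (p : M) (δ : ℝ), 0 < δ → ∀ᵐ x ∂m, gg p x < δ →
    2 * gg p x ≤ slope (cl m (ww δ p)) x ^ 2
  /-- Laplacian comparison: `Δ g_p ≤ n - (2K/3) g_p` -/
  lc : ∀ (p : M) (δ : ℝ), 0 < δ → ∀ φ ∈ (sob m).W, 0 ≤ φ → (∀ᵐ x ∂m, δ ≤ gg p x → φ x = 0) →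
    -I ((sob m).Γ (cl m (ww δ p)) φ) ≤ ∫ x, (n - 2 * K / 3 * gg p x) * φ x ∂m

variable {m : Measure M} {n : ℕ} {K : ℝ} {θ : M → ℝ}

theorem NSp2.isDir [BorelSpace M] [SecondCountableTopology M] (h : NSp2 m n K θ) : IsDir (sob m) :=
  isDir_sob h.fin h.quadratic

theorem NSp2.isGamma [BorelSpace M] [SecondCountableTopology M] (h : NSp2 m n K θ) :
    IsGamma (sob m) :=
  isGamma_sob h.fin h.quadratic h.s2l

theorem NSp2.θ_pos (h : NSp2 m n K θ) (x : M) : 0 < θ x := by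
  obtain ⟨c, hc, h⟩ := h.th_bd x 1
  exact hc.trans_le (h x (Metric.mem_ball_self one_pos)).1

/-- the fields of `NSp2` without the density -/
theorem NSp2.local_bd (h : NSp2 m n K θ) (x₀ : M) (R : ℝ) :
    ∃ c : ℝ, 0 < c ∧ ∀ x ∈ Metric.ball x₀ R, c ≤ θ x ∧ θ x ≤ c⁻¹ := h.th_bd x₀ R

end

/-- Binder: `(M, m)` satisfies the hypotheses of Theorem N with a density function. -/
def ForN (P : ∀ (M : Type u) [MetricSpace M] [MeasurableSpace M] (m : Measure M) (n : ℕ) (K : ℝ)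
    (θ : M → ℝ), Prop) : Prop :=
  ∀ (M : Type u) [MetricSpace M] [CompleteSpace M] [SecondCountableTopology M]
    [MeasurableSpace M] [BorelSpace M] (m : Measure M) (n : ℕ) (K : ℝ) (θ : M → ℝ),
    NSp2 m n K θ → P M m n K θ

/-- Theorem N with a density function. -/
def PartN2 : Prop := ForN.{u} fun M _ _ m n K θ => (sob m).BE K n

end Vale.Agent.P233.N2
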