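import Vale.Agent.P233.CD.If3b
import Vale.Agent.P233.N2.Defs

/-! P233, stage 3: the block `CD.Blk_N2` from Theorem N with a density function. -/

set_option linter.all false

open MeasureTheory Filter Topology Set Metric
open scoped ENNReal NNReal MeasureTheory

universe u

namespace Vale.Agent.P233.N2

open Vale.Agent.P233.RA

theorem nsp2_of {M : Type u} [MetricSpace M] [CompleteSpace M] [SecondCountableTopology M]
    [MeasurableSpace M] [BorelSpace M] {m : Measure M} {n : ℕ} {K : ℝ} {θ : M → ℝ} (hn : 2 ≤ n)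
    (hG : RG.GeoN m n) (ht : CD.Th m n θ) (hQ : RG.Quadr m) (hS : RG.S2L m) (hL : RG.LC m n K)
    (hW : CD.WGrad m) : NSp2 m n K θ := by
  refine
    { n_pos := lt_of_lt_of_le two_pos hn
      proper := hG.geo.proper
      geo := hG.geo.geod
      full := hG.full
      fin := hG.fin
      growth := hG.growth
      upper := fun x₀ R => ?_
      doubling := fun x₀ R => ?_
      th_meas := ht.meas
      th_bd := ht.bd
      dens := ht.dens
      quadratic := hQ
      s2l := hS
      ww_grad := hW
      lc := hL }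
  · obtain ⟨c, -, C, h⟩ := hG.geo.vol x₀ (max R 1)
    exact ⟨C, fun x hx r h1 h2 => (h x (ball_subset_ball (le_max_left _ _) hx) r h1
      (h2.trans (le_max_right _ _))).2⟩
  · obtain ⟨c, hc, C, h⟩ := hG.geo.vol x₀ (max R 2)
    refine ⟨Real.toNNReal (|C| * 2 ^ n / c), fun x hx r h1 h2 => ?_⟩
    have h3 := (h x (ball_subset_ball (le_max_left _ _) hx) (2 * r) (by linarith)
      ((by linarith : 2 * r ≤ 2).trans (le_max_right _ _))).2
    have h4 := (h x (ball_subset_ball (le_max_left _ _) hx) r h1
      ((by linarith : r ≤ 2).trans (le_max_right _ _))).1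
    refine h3.trans (le_trans ?_ (mul_le_mul_right h4 _))
    change _ ≤ ENNReal.ofReal (|C| * 2 ^ n / c) * ENNReal.ofReal (c * r ^ n)
    rw [← ENNReal.ofReal_mul (by positivity)]
    refine ENNReal.ofReal_le_ofReal ?_
    have h5 : |C| * 2 ^ n / c * (c * r ^ n) = |C| * (2 * r) ^ n := by
      rw [mul_pow]
      field_simp
    rw [h5]
    exact mul_le_mul_of_nonneg_right (le_abs_self _) (by positivity)

theorem blk_N2_of (h : PartN2.{u}) : CD.Blk_N2.{u} :=
  fun M _ _ _ _ _ m n K θ hn hG ht hQ hS hL hW => h M m n K θ (nsp2_of hn hG ht hQ hS hL hW)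

end Vale.Agent.P233.N2
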