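import Vale.Agent.P233.N2.IfHK

/-! P233, stage 3, Theorem N with a density function: interface of the parts T and S. -/

set_option linter.all false

open MeasureTheory Filter Topology Set
open scoped ENNReal NNReal MeasureTheory

universe u

namespace Vale.Agent.P233.N2

open Vale.Agent.P233.RA

section inS

variable {M : Type u} [MetricSpace M] [MeasurableSpace M]

/-- `θ_τ(x) = ∫_{B_η(x)} K̂_τ(x,y) dm(y)`, pole `x` -/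
noncomputable def tht (m : Measure M) (n : ℕ) (K : ℝ) (θ : M → ℝ) (η τ : ℝ) (x : M) : ℝ :=
  ∫ y in Metric.ball x η, KH n K (θ x) τ x y ∂m

/-- `∫_{B_η(x)} a(τ) (d²/2) K̂_τ(x,y) dm(y)`, pole `x` -/
noncomputable def mom (m : Measure M) (n : ℕ) (K : ℝ) (θ : M → ℝ) (η τ : ℝ) (x : M) : ℝ :=
  ∫ y in Metric.ball x η, aK K τ * gg y x * KH n K (θ x) τ x y ∂m

/-- Everything that part S uses. -/
structure InS (m : Measure M) (n : ℕ) (K : ℝ) (θ : M → ℝ) (δ : ℝ) : Prop where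
  hN : NSp2 m n K θ
  ok : Okd M K δ
  sg : SG0 (Q m)
  flow : ∀ ρ ρ' : M →ₘ[m] ℝ, CD m ρ ρ' → ∀ t : ℝ, 0 ≤ t → CD m (Q m t ρ) (Q m t ρ')
  deriv : ∀ ρ ρ' : M →ₘ[m] ℝ, CD m ρ ρ' → ∀ φ : M → ℝ, Measurable φ → (∃ B : ℝ, ∀ x, |φ x| ≤ B) →
    ∀ t : ℝ, 0 ≤ t → HasDerivWithinAt (fun s => ∫ x, φ x * Q m s ρ x ∂m)
      (2⁻¹ * ∫ x, φ x * Q m t ρ' x ∂m) (Ici 0) t
  lip : ∀ ρ ρ' : M →ₘ[m] ℝ, CD m ρ ρ' → ∀ s t : ℝ, 0 ≤ s → 0 ≤ t →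
    ∫ x, |(Q m t ρ - Q m s ρ) x| ∂m ≤ |t - s| / 2 * ∫ x, |ρ' x| ∂m
  /-- `Q_t c_y ≤ c_y + (t/2) (n - (2K/3) c_y) + C t^{3/2}`, literally H3b -/
  drift : ∃ C : ℝ, 0 ≤ C ∧ ∀ t : ℝ, 0 ≤ t → t ≤ 1 → ∀ y : M, ∀ᵐ x ∂m,
    Q m t (cl m (ww δ y)) x ≤ ww δ y x + t / 2 * (n - 2 * K / 3 * cc δ x y) + C * (t * √t)
  /-- Cheeger–Yau, literally H4 -/
  cy : ∀ s : ℝ, 0 < s → s ≤ 1 → ∀ f h : M →ₘ[m] ℝ,
    0 ≤ f → 0 ≤ h → MemLp f 2 m → MemLp h 2 m →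
      ∫⁻ x, ∫⁻ y, ENNReal.ofReal (f x * KH n K (θ y) s x y * h y) ∂m ∂m ≤
        ENNReal.ofReal (I (f * Q m s h))
  /-- Cheeger–Yau and Davies, literally S1 -/
  dav : ∀ φ ψ : M → ℝ, BLip φ → BLip ψ →
    (∀ x y, φ x + ψ y ≤ dist x y ^ 2 / 2) → ∀ T : ℝ, 0 < T → T ≤ 1 → ∀ f h : M →ₘ[m] ℝ,
    0 ≤ f → 0 ≤ h → MemLp f 2 m → MemLp h 2 m → I (f ^ 2) ≤ 1 → I (h ^ 2) ≤ 1 →
      ∫⁻ x, ∫⁻ y, ENNReal.ofReal
        (Real.exp (φ x / T) * f x * KH n K (θ y) T x y * (Real.exp (ψ y / T) * h y)) ∂m ∂m ≤ 1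
  /-- small time asymptotics, from the density of `m` -/
  asy : ∀ᵐ x ∂m, ∀ η : ℝ, 0 < η → Tendsto (fun τ => tht m n K θ η τ x) (𝓝[>] 0) (𝓝 1) ∧
    Tendsto (fun τ => mom m n K θ η τ x) (𝓝[>] 0) (𝓝 ((n : ℝ) / 2))

/-- sets on which the small time asymptotics is uniform -/
structure Good (m : Measure M) (n : ℕ) (K : ℝ) (θ : M → ℝ) (E : Set M) : Prop where
  meas : MeasurableSet E
  bdd : Bornology.IsBounded E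
  unif : ∀ η : ℝ, 0 < η → ∀ ε : ℝ, 0 < ε → ∀ᶠ j in atTop, ∀ x ∈ E,
    |tht m n K θ η (tau j) x - 1| ≤ ε ∧ |mom m n K θ η (tau j) x - (n : ℝ) / 2| ≤ ε

end inS

/-- **In** (from H1, H2, H3b, H4, S1 and `NSp.dens`) -/
def Blk_InS : Prop :=
  ∀ {M : Type u} [MetricSpace M] [ProperSpace M] [MeasurableSpace M] [BorelSpace M]
    (m : Measure M) (n : ℕ) (K : ℝ) (θ : M → ℝ) (δ : ℝ),
    NSp2 m n K θ → Okd M K δ → InS m n K θ δ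

/-- **S3**: Egorov. -/
def Blk_S3 : Prop :=
  ∀ {M : Type u} [MetricSpace M] [ProperSpace M] [MeasurableSpace M] [BorelSpace M]
    (m : Measure M) (n : ℕ) (K : ℝ) (θ : M → ℝ) (δ : ℝ), InS m n K θ δ →
    ∀ (μ : Measure M) [IsFiniteMeasure μ], μ ≪ m → ∀ ε : ℝ≥0∞, 0 < ε →
    ∃ E, Good m n K θ E ∧ μ Eᶜ ≤ ε

/-- **S4**: the drift. (With `B = ∅` it gives `0 ≤ aS`; the mirror image is `Opt.swap`.) -/
def Blk_S4 : Prop :=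
  ∀ {M : Type u} [MetricSpace M] [ProperSpace M] [MeasurableSpace M] [BorelSpace M]
    (m : Measure M) (n : ℕ) (K : ℝ) (θ : M → ℝ) (δ : ℝ), InS m n K θ δ →
    ∀ (ρ ρ' σ σ' : M →ₘ[m] ℝ), CD m ρ ρ' → CD m σ σ' →
    ∀ (γ : Measure (M × M)) (φ ψ : M → ℝ), Opt δ (dm ρ) (dm σ) γ φ ψ →
    ∀ E : Set M, Good m n K θ E → ∀ B : Set (M × M), MeasurableSet B → B ⊆ E ×ˢ univ →
    ∀ η : ℝ, 0 < η → ∀ ε : ℝ, 0 < ε → ∀ᶠ j in atTop,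
    ∫ z in B, ((tht m n K θ η (tau j) z.1)⁻¹ * ∫ x in Metric.ball z.1 η,
        KH n K (θ z.1) (tau j) z.1 x * (cc δ x z.2 - φ x - ψ z.2) ∂m) ∂γ
      ≤ tau j / 2 * aS n K δ γ φ ρ' + ε * tau j

/-- **S25**: the two one-sided entropy inequalities added, on a set `B` inside `{d²/2 < δ}`. -/
def Blk_S25 : Prop :=
  ∀ {M : Type u} [MetricSpace M] [ProperSpace M] [MeasurableSpace M] [BorelSpace M]
    (m : Measure M) (n : ℕ) (K : ℝ) (θ : M → ℝ) (δ : ℝ), InS m n K θ δ →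
    ∀ (ρ ρ' σ σ' : M →ₘ[m] ℝ), CD m ρ ρ' → CD m σ σ' →
    ∀ (γ : Measure (M × M)) (φ ψ : M → ℝ), Opt δ (dm ρ) (dm σ) γ φ ψ →
    ∀ E E' : Set M, Good m n K θ E → Good m n K θ E' →
    ∀ B : Set (M × M), MeasurableSet B → B ⊆ E ×ˢ E' → γ B ≠ 0 →
    ∀ ε₀ : ℝ, 0 < ε₀ → (∀ z ∈ B, dist z.1 z.2 ^ 2 / 2 ≤ δ - ε₀) →
    ∀ lam lam' : ℝ, 0 < lam → 0 < lam' →
    0 ≤ -((n : ℝ) / 2) * Real.log (lam * lam') - n
      + (lam * aS n K δ γ φ ρ' + lam' * aS n K δ γ ψ σ') / (2 * (γ B).toReal)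
      - K / (3 * (γ B).toReal) * ∫ z in B, cc δ z.1 z.2 ∂γ

/-- **S5**: `B → A = {d²/2 < δ}`; optimization. `α = γ(A)`. -/
def Blk_S5 : Prop :=
  ∀ {M : Type u} [MetricSpace M] [ProperSpace M] [MeasurableSpace M] [BorelSpace M]
    (m : Measure M) (n : ℕ) (K : ℝ) (θ : M → ℝ) (δ : ℝ), InS m n K θ δ →
    ∀ (ρ ρ' σ σ' : M →ₘ[m] ℝ), CD m ρ ρ' → CD m σ σ' →
    ∀ (γ : Measure (M × M)) (φ ψ : M → ℝ), Opt δ (dm ρ) (dm σ) γ φ ψ →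
    0 ≤ aS n K δ γ φ ρ' ∧ 0 ≤ aS n K δ γ ψ σ' ∧
    (0 < (γ (cutA M δ)).toReal →
      (n : ℝ) ^ 2 * (γ (cutA M δ)).toReal ^ 2 * Real.exp (2 * K / (3 * n * (γ (cutA M δ)).toReal)
        * ∫ z in cutA M δ, cc δ z.1 z.2 ∂γ) ≤ aS n K δ γ φ ρ' * aS n K δ γ ψ σ')

/-- **S6**: rate, Gronwall. -/
def Blk_S6 : Prop :=
  ∀ {M : Type u} [MetricSpace M] [ProperSpace M] [MeasurableSpace M] [BorelSpace M]
    (m : Measure M) (n : ℕ) (K : ℝ) (θ : M → ℝ) (δ : ℝ), InS m n K θ δ → OutCd m n K δ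

/-- parts S and T -/
def Blk_ST : Prop := ForN.{u} fun M _ _ m n K θ => OutC m n K

theorem blk_ST_of (hIn : Blk_InS.{u}) (h6 : Blk_S6.{u}) : Blk_ST.{u} := by
  intro M _ _ _ _ _ m n K θ hN
  haveI : ProperSpace M := hN.proper
  intro δ hδ
  exact h6 m n K θ δ (hIn m n K θ δ hN hδ)

end Vale.Agent.P233.N2
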