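import Vale.Agent.P233.H183.RS4e
import Vale.Agent.P233.N2.IfST

/-! P233, stage 3, Theorem N with a density function: block S4 (drift), `blk_S4 : N2.Blk_S4`.
Port of `H183/RS4d.lean`, `H183/RS4e.lean`; the pole of the kernel is the first variable. -/

set_option linter.all false

open MeasureTheory Filter Topology Set
open scoped ENNReal NNReal

universe u

namespace Vale.Agent.P233.N2.S4

open Vale.Agent.P233.H183
open Vale.Agent.P233.RA (gg cc ww aK bK ga KH Q Okd CD BLip Adm Opt dm SG0 tau aS)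

section ins

variable {M : Type u} [MetricSpace M] [ProperSpace M] [MeasurableSpace M] [BorelSpace M]
  {m : Measure M} {n : ℕ} {K δ : ℝ} {θ : M → ℝ}

/-- (LC) in duality with a density -/
theorem lc_dual2 (h : InS m n K θ δ) {C : ℝ}
    (hC : ∀ t : ℝ, 0 ≤ t → t ≤ 1 → ∀ y : M, ∀ᵐ x ∂m,
      Q m t (cl m (ww δ y)) x ≤ ww δ y x + t / 2 * (n - 2 * K / 3 * cc δ x y) + C * (t * √t))
    {t : ℝ} (ht : 0 ≤ t) (ht1 : t ≤ 1) (y : M) {u : M →ₘ[m] ℝ} (hu0 : 0 ≤ u)
    (hu1 : MemLp u 1 m) (hu2 : MemLp u 2 m) :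
    ∫ x, Q m t u x * cc δ x y ∂m ≤ (∫ x, u x * cc δ x y ∂m)
      + t / 2 * (n * I u - 2 * K / 3 * ∫ x, u x * cc δ x y ∂m) + C * (t * √t) * I u := by
  have hδ : 0 ≤ δ := h.ok.1.le
  have hcont : Continuous fun x => cc δ x y :=
    (continuous_cc δ).comp (continuous_id.prodMk continuous_const)
  have hcb : ∀ x, |cc δ x y| ≤ δ := fun x => by
    rw [abs_of_nonneg (cc_nonneg hδ x y)]; exact cc_le x y
  have hw2 : MemLp (cl m (ww δ y)) 2 m := ww_mem h.hN.fin hδ y 2
  have hq2 : MemLp (Q m t u) 2 m := h.sg.mem t ht u hu2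
  have hq1 : MemLp (Q m t u) 1 m := h.sg.L1 t ht u hu2 hu1
  have hmass : I (Q m t u) = I u := h.sg.mass t ht u hu2 hu1
  have hwq2 : MemLp (Q m t (cl m (ww δ y))) 2 m := h.sg.mem t ht _ hw2
  have e1 : ∫ x, Q m t u x * cc δ x y ∂m = I (Q m t u * cl m (ww δ y)) + δ * I u := by
    rw [← hmass]
    unfold I
    rw [← integral_const_mul, ← integral_add (int_of_mem (mem_mul_22 hq2 hw2))
      ((int_of_mem hq1).const_mul δ)]
    refine integral_congr_ae ?_
    filter_upwards [mul_ae (f := Q m t u) (g := cl m (ww δ y)),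
      cl_cont (m := m) (continuous_ww δ y)] with x a1 a2
    rw [a1, a2]; unfold ww; ring
  have e2 : I (Q m t u * cl m (ww δ y)) = I (u * Q m t (cl m (ww δ y))) :=
    h.sg.symm t ht u _ hu2 hw2
  have hX : Continuous fun x => ww δ y x + t / 2 * (n - 2 * K / 3 * cc δ x y) + C * (t * √t) :=
    ((continuous_ww δ y).add (continuous_const.mul (continuous_const.sub
      (continuous_const.mul hcont)))).add continuous_const
  have i1 : Integrable (fun x => u x * ww δ y x) m :=
    int_cb hu1 (continuous_ww δ y) (abs_ww hδ y)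
  have i2 : Integrable (fun x => u x * cc δ x y) m := int_cb hu1 hcont hcb
  have i3 : Integrable (fun x => u x) m := int_of_mem hu1
  have e3 : I (u * Q m t (cl m (ww δ y))) ≤ (∫ x, u x * ww δ y x ∂m)
      + t / 2 * (n * I u - 2 * K / 3 * ∫ x, u x * cc δ x y ∂m) + C * (t * √t) * I u := by
    have j1 : Integrable (fun x => (n : ℝ) * u x) m := i3.const_mul _
    have j2 : Integrable (fun x => 2 * K / 3 * (u x * cc δ x y)) m := i2.const_mul _
    have j3 : Integrable (fun x => t / 2 * (n * u x - 2 * K / 3 * (u x * cc δ x y))) m :=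
      (j1.sub j2).const_mul _
    have j4 : Integrable (fun x => C * (t * √t) * u x) m := i3.const_mul _
    have j5 : Integrable (fun x => u x * ww δ y x + t / 2 * (n * u x - 2 * K / 3 *
        (u x * cc δ x y))) m := i1.add j3
    have i4 : Integrable (fun x => u x * ww δ y x + t / 2 * (n * u x - 2 * K / 3 *
        (u x * cc δ x y)) + C * (t * √t) * u x) m := j5.add j4
    calc I (u * Q m t (cl m (ww δ y)))
        ≤ ∫ x, (u x * ww δ y x + t / 2 * (n * u x - 2 * K / 3 *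
        (u x * cc δ x y)) + C * (t * √t) * u x) ∂m := by
          refine integral_mono_ae (int_of_mem (mem_mul_22 hu2 hwq2)) i4 ?_
          filter_upwards [mul_ae (f := u) (g := Q m t (cl m (ww δ y))), hC t ht ht1 y,
            nonneg_iff_ae.1 hu0] with x a1 a2 a3
          rw [a1]
          refine (mul_le_mul_of_nonneg_left a2 a3).trans (le_of_eq ?_)
          ring
      _ = _ := by
          rw [integral_add j5 j4, integral_add i1 j3, integral_const_mul, integral_sub j1 j2,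
            integral_const_mul, integral_const_mul, integral_const_mul]
          rfl
  have e4 : ∫ x, u x * ww δ y x ∂m = (∫ x, u x * cc δ x y ∂m) - δ * I u := by
    unfold I
    rw [← integral_const_mul, ← integral_sub i2 (i3.const_mul δ)]
    refine integral_congr_ae (Eventually.of_forall fun x => ?_)
    simp only; unfold ww; ring
  rw [e1, e2]
  rw [e4] at e3
  linarith

/-- the truncated Cheeger–Yau kernel with the pole `x` -/
noncomputable def kt2 (n : ℕ) (K : ℝ) (θ : M → ℝ) (η τ : ℝ) (x y : M) : ℝ :=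
  (Metric.ball x η).indicator (fun y => KH n K (θ x) τ x y) y

theorem KH_symm (n : ℕ) (K c τ : ℝ) (x y : M) : KH n K c τ x y = KH n K c τ y x := by
  unfold KH gg
  rw [dist_comm x y]

theorem measurable_KH2 {θ : M → ℝ} (hθ : Measurable θ) (n : ℕ) (K τ : ℝ) :
    Measurable (Function.uncurry fun x y : M => KH n K (θ x) τ x y) := by
  have h1 : Continuous fun z : M × M => Real.exp (-(aK K τ * gg z.2 z.1) - bK n K * τ) := by
    unfold gg; fun_prop
  have h2 : Measurable fun z : M × M => (ga n (θ z.1))⁻¹ * τ ^ (-((n : ℝ) / 2)) := by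
    have h3 : Measurable fun z : M × M => θ z.1 := hθ.comp measurable_fst
    unfold ga
    exact ((h3.mul_const _).mul_const _).inv.mul_const _
  exact h2.mul h1.measurable

theorem measurable_kt2 {θ : M → ℝ} (hθ : Measurable θ) (n : ℕ) (K η τ : ℝ) :
    Measurable (Function.uncurry fun x y : M => kt2 n K θ η τ x y) := by
  have h1 : (Function.uncurry fun x y : M => kt2 n K θ η τ x y)
      = {z : M × M | dist z.2 z.1 < η}.indicator
        (Function.uncurry fun x y => KH n K (θ x) τ x y) := by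
    funext z
    show (Metric.ball z.1 η).indicator (fun y => KH n K (θ z.1) τ z.1 y) z.2 = _
    by_cases hz : dist z.2 z.1 < η
    · rw [indicator_of_mem (show z.2 ∈ Metric.ball z.1 η from hz), indicator_of_mem (show z ∈
        {z : M × M | dist z.2 z.1 < η} from hz)]
      rfl
    · rw [indicator_of_notMem (show z.2 ∉ Metric.ball z.1 η from hz), indicator_of_notMem (show z ∉
        {z : M × M | dist z.2 z.1 < η} from hz)]
  rw [h1]
  exact (measurable_KH2 hθ n K τ).indicator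
    (isOpen_lt (continuous_snd.dist continuous_fst) continuous_const).measurableSet

theorem kt2_nonneg {θ : M → ℝ} (hθ : ∀ x, 0 ≤ θ x) (n : ℕ) (K η : ℝ) {τ : ℝ} (hτ : 0 ≤ τ)
    (x y : M) : 0 ≤ kt2 n K θ η τ x y :=
  indicator_nonneg (fun z _ => KH_nonneg (hθ x) n K hτ x z) y

theorem kt2_le {θ : M → ℝ} (hθ : ∀ x, 0 ≤ θ x) (n : ℕ) (K η : ℝ) {τ : ℝ} (hτ : 0 ≤ τ) (x y : M) :
    kt2 n K θ η τ x y ≤ KH n K (θ x) τ x y :=
  indicator_le_self' (fun z _ => KH_nonneg (hθ x) n K hτ x z) y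

/-- Cheeger–Yau for bounded continuous functions; the pole is the variable of the density. -/
theorem kerHyp2 (h : InS m n K θ δ) {τ : ℝ} (hτ : 0 < τ) (hτ1 : τ ≤ 1) (η : ℝ) :
    KerHyp m (fun x y => kt2 n K θ η τ x y) (Q m τ) where
  meas := measurable_kt2 h.hN.th_meas n K η τ
  k0 := fun x y => kt2_nonneg (fun x => (h.hN.θ_pos x).le) n K η hτ.le x y
  cy := by
    intro u hu0 hu1 hu2 v B hvc hvb hv0
    haveI : SigmaFinite m := sigmaFinite_of_ball h.hN.fin
    rcases isEmpty_or_nonempty M with hM | ⟨⟨x₀⟩⟩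
    · rw [lintegral_of_isEmpty]; exact zero_le
    have hθ : ∀ x, 0 ≤ θ x := fun x => (h.hN.θ_pos x).le
    have hq2 : MemLp (Q m τ u) 2 m := h.sg.mem τ hτ.le u hu2
    have hq1 : MemLp (Q m τ u) 1 m := h.sg.L1 τ hτ.le u hu2 hu1
    have hq0 : 0 ≤ Q m τ u := h.sg.nonneg τ hτ.le u hu2 hu0
    have hG : Measurable fun z : M × M =>
        ENNReal.ofReal (u z.1 * kt2 n K θ η τ z.1 z.2 * v z.2) :=
      (((u.measurable.comp measurable_fst).mul (measurable_kt2 h.hN.th_meas n K η τ)).mul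
        (hvc.measurable.comp measurable_snd)).ennreal_ofReal
    have hGx : ∀ x, Measurable fun y => ENNReal.ofReal (u x * kt2 n K θ η τ x y * v y) :=
      fun x => hG.comp measurable_prodMk_left
    -- the bound on balls
    have hball : ∀ N : ℕ, ∫⁻ x, ∫⁻ y in Metric.ball x₀ N,
        ENNReal.ofReal (u x * kt2 n K θ η τ x y * v y) ∂m ∂m
        ≤ ENNReal.ofReal (∫ x, Q m τ u x * v x ∂m) := by
      intro N
      set w : M → ℝ := (Metric.ball x₀ N).indicator v with hw
      have hwm : AEStronglyMeasurable w m :=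
        (hvc.measurable.indicator measurableSet_ball).aestronglyMeasurable
      have hwb : ∀ x, |w x| ≤ B := by
        intro x
        rw [hw]
        by_cases hx : x ∈ Metric.ball x₀ (N : ℝ)
        · rw [indicator_of_mem hx]; exact hvb x
        · rw [indicator_of_notMem hx, abs_zero]; exact (abs_nonneg _).trans (hvb x)
      have hw2 : MemLp (cl m w) 2 m := cl_memLp hwm
        (memLp_of_ball h.hN.fin hwm hwb (x₀ := x₀) (R := N)
          (fun x hx => indicator_of_notMem hx _) 2)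
      have hw0 : 0 ≤ cl m w := by
        rw [nonneg_iff_ae]
        filter_upwards [cl_ae hwm] with x hx
        rw [hx]; exact indicator_nonneg (fun z _ => hv0 z) x
      have hswap : AEMeasurable (Function.uncurry fun x y : M =>
          ENNReal.ofReal (cl m w y * KH n K (θ x) τ y x * u x)) (m.prod m) := by
        have e : (Function.uncurry fun x y : M =>
          ENNReal.ofReal (cl m w y * KH n K (θ x) τ y x * u x)) = fun z : M × M =>
            ENNReal.ofReal (cl m w z.2 * (Function.uncurry fun x y : M => KH n K (θ x) τ x y) z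
              * u z.1) := by
          funext z
          simp only [Function.uncurry]
          rw [KH_symm]
        rw [e]
        exact ((((cl m w).measurable.comp measurable_snd).mul
          (measurable_KH2 h.hN.th_meas n K τ)).mul
            (u.measurable.comp measurable_fst)).ennreal_ofReal.aemeasurable
      calc ∫⁻ x, ∫⁻ y in Metric.ball x₀ N,
            ENNReal.ofReal (u x * kt2 n K θ η τ x y * v y) ∂m ∂m
          ≤ ∫⁻ x, ∫⁻ y, ENNReal.ofReal (cl m w y * KH n K (θ x) τ y x * u x) ∂m ∂m := by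
            refine lintegral_mono_ae ?_
            filter_upwards [nonneg_iff_ae.1 hu0] with x hx
            rw [← lintegral_indicator measurableSet_ball]
            refine lintegral_mono_ae ?_
            filter_upwards [cl_ae hwm] with y hy
            rw [hy, hw]
            by_cases hyb : y ∈ Metric.ball x₀ (N : ℝ)
            · rw [indicator_of_mem hyb, indicator_of_mem hyb, KH_symm n K (θ x) τ y x]
              refine ENNReal.ofReal_le_ofReal ?_
              have h1 := kt2_le hθ n K η hτ.le x y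
              have h2 := hv0 y
              have h3 : u x * kt2 n K θ η τ x y * v y ≤ u x * KH n K (θ x) τ x y * v y := by
                gcongr
              refine h3.trans (le_of_eq ?_)
              ring
            · rw [indicator_of_notMem hyb]; exact zero_le
        _ = ∫⁻ y, ∫⁻ x, ENNReal.ofReal (cl m w y * KH n K (θ x) τ y x * u x) ∂m ∂m :=
            lintegral_lintegral_swap hswap
        _ ≤ ENNReal.ofReal (I (cl m w * Q m τ u)) := h.cy τ hτ hτ1 _ u hw0 hu0 hw2 hu2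
        _ ≤ _ := by
            refine ENNReal.ofReal_le_ofReal ?_
            refine integral_mono_ae (int_of_mem (mem_mul_22 hw2 hq2))
              (int_cb hq1 hvc hvb) ?_
            filter_upwards [mul_ae (f := cl m w) (g := Q m τ u), cl_ae hwm,
              nonneg_iff_ae.1 hq0] with x a1 a2 a3
            rw [a1, a2, mul_comm]
            exact mul_le_mul_of_nonneg_left (indicator_le_self' (fun z _ => hv0 z) x) a3
    -- monotone convergence
    have hmono : Monotone fun N : ℕ => Metric.ball x₀ (N : ℝ) := fun a b hab =>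
      Metric.ball_subset_ball (Nat.cast_le.2 hab)
    have hUn : ⋃ N : ℕ, Metric.ball x₀ (N : ℝ) = univ := Metric.iUnion_ball_nat x₀
    have hinner : ∀ x, ∫⁻ y, ENNReal.ofReal (u x * kt2 n K θ η τ x y * v y) ∂m
        = ⨆ N : ℕ, ∫⁻ y in Metric.ball x₀ (N : ℝ),
          ENNReal.ofReal (u x * kt2 n K θ η τ x y * v y) ∂m := by
      intro x
      rw [← setLIntegral_univ, ← hUn]
      exact setLIntegral_iUnion_of_directed _ hmono.directed_le
    have houter : ∀ N : ℕ, Measurable fun x => ∫⁻ y in Metric.ball x₀ (N : ℝ),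
          ENNReal.ofReal (u x * kt2 n K θ η τ x y * v y) ∂m := fun N =>
      Measurable.lintegral_prod_right' hG
    simp_rw [hinner]
    rw [lintegral_iSup houter fun a b hab x => lintegral_mono_set (hmono hab)]
    exact iSup_le hball

end ins

section main

variable {M : Type u} [MetricSpace M] [ProperSpace M] [MeasurableSpace M] [BorelSpace M]
  {m : Measure M} {n : ℕ} {K δ : ℝ} {θ : M → ℝ} {ρ ρ' σ σ' : M →ₘ[m] ℝ} {γ : Measure (M × M)}
  {φ ψ : M → ℝ}

theorem driftHyp2 (h : InS m n K θ δ) {C : ℝ}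
    (hC : ∀ t : ℝ, 0 ≤ t → t ≤ 1 → ∀ y : M, ∀ᵐ x ∂m,
      Q m t (cl m (ww δ y)) x ≤ ww δ y x + t / 2 * (n - 2 * K / 3 * cc δ x y) + C * (t * √t))
    (hρ : CD m ρ ρ') (ho : Opt δ (dm ρ) (dm σ) γ φ ψ) {t : ℝ} (ht : 0 ≤ t) (ht1 : t ≤ 1) :
    DriftHyp m γ ρ (fun x y => cc δ x y) φ ψ δ δ n K t (C * (t * √t)) (Q m t) where
  hρ := ho.fst
  ρ0 := hρ.nonneg
  ρ1 := hρ.m1
  ρ2 := mem2_of hρ.m1 hρ.mt
  c0 := fun x y => cc_nonneg h.ok.1.le x y
  cδ := fun x y => cc_le x y
  cc := continuous_cc δ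
  φc := cont_of_blip ho.adm.bl1
  ψc := cont_of_blip ho.adm.bl2
  φb := ho.bdφ
  ψb := ho.bdψ
  le := ho.adm.le
  eq := ho.eq
  τ0 := ht
  pos := fun u hu0 hu1 hu2 => ⟨h.sg.nonneg t ht u hu2 hu0, h.sg.L1 t ht u hu2 hu1,
    h.sg.mass t ht u hu2 hu1⟩
  zero := by
    have h1 := h.sg.smul t ht 0 0 mem_zero
    rwa [zero_smul, zero_smul] at h1
  add := fun u v _ _ hu2 hv2 => h.sg.add t ht u v hu2 hv2
  lc := fun y u hu0 hu1 hu2 => lc_dual2 h hC ht ht1 y hu0 hu1 hu2

/-- passing from the lower integral to the Bochner integral with the factor `tht⁻¹` -/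
theorem bochner_le2 (hθ : ∀ x, 0 ≤ θ x) {η τ c0 X : ℝ} (hτ : 0 ≤ τ) (hc0 : 0 < c0) (hX : 0 ≤ X)
    {E : Set M} {B : Set (M × M)} (hB : MeasurableSet B) (hBE : B ⊆ E ×ˢ univ)
    (hφ : Continuous φ) (hψ : Continuous ψ) (hle : ∀ x y, φ x + ψ y ≤ cc δ x y)
    (hE : ∀ x ∈ E, c0⁻¹ ≤ tht m n K θ η τ x)
    (hker : ∫⁻ z, ∫⁻ x, ENNReal.ofReal (kt2 n K θ η τ z.1 x * (cc δ x z.2 - φ x - ψ z.2)) ∂m ∂γ
      ≤ ENNReal.ofReal X) :
    ∫ z in B, ((tht m n K θ η τ z.1)⁻¹ * ∫ x in Metric.ball z.1 η, KH n K (θ z.1) τ z.1 x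
        * (cc δ x z.2 - φ x - ψ z.2) ∂m) ∂γ ≤ c0 * X := by
  have hf0 : ∀ (z : M × M) (x : M), 0 ≤ KH n K (θ z.1) τ z.1 x * (cc δ x z.2 - φ x - ψ z.2) := by
    intro z x
    have h1 := hle x z.2
    exact mul_nonneg (KH_nonneg (hθ z.1) n K hτ _ _) (by linarith)
  have hfc : ∀ z : M × M, Continuous fun x => KH n K (θ z.1) τ z.1 x * (cc δ x z.2 - φ x - ψ z.2) := by
    intro z
    exact (cont_KH n K (θ z.1) τ z.1).mul (((cont_cc δ z.2).sub hφ).sub continuous_const)
  set H : M × M → ℝ := fun z => (tht m n K θ η τ z.1)⁻¹ * ∫ x in Metric.ball z.1 η,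
    KH n K (θ z.1) τ z.1 x * (cc δ x z.2 - φ x - ψ z.2) ∂m with hH
  set G : M × M → ℝ≥0∞ := fun z =>
    ∫⁻ x, ENNReal.ofReal (kt2 n K θ η τ z.1 x * (cc δ x z.2 - φ x - ψ z.2)) ∂m with hG
  have hcX : 0 ≤ c0 * X := by positivity
  by_cases hi : Integrable H (γ.restrict B)
  swap
  · rw [integral_undef hi]; exact hcX
  have hG0 : ∀ z : M × M, 0 ≤ ∫ x in Metric.ball z.1 η,
      KH n K (θ z.1) τ z.1 x * (cc δ x z.2 - φ x - ψ z.2) ∂m := fun z =>
    integral_nonneg (hf0 z)
  have hGz : ∀ z : M × M, ENNReal.ofReal (∫ x in Metric.ball z.1 η,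
      KH n K (θ z.1) τ z.1 x * (cc δ x z.2 - φ x - ψ z.2) ∂m) ≤ G z := by
    intro z
    have e := integral_eq_lintegral_of_nonneg_ae (μ := m.restrict (Metric.ball z.1 η))
      (f := fun x => KH n K (θ z.1) τ z.1 x * (cc δ x z.2 - φ x - ψ z.2))
      (Eventually.of_forall (hf0 z)) (hfc z).aestronglyMeasurable
    rw [e]
    refine ENNReal.ofReal_toReal_le.trans (le_of_eq ?_)
    rw [hG, ← lintegral_indicator measurableSet_ball]
    refine lintegral_congr fun x => ?_
    unfold kt2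
    by_cases hx : x ∈ Metric.ball z.1 η
    · rw [indicator_of_mem hx, indicator_of_mem hx]
    · rw [indicator_of_notMem hx, indicator_of_notMem hx, zero_mul, ENNReal.ofReal_zero]
  have hHnn : ∀ᵐ z ∂(γ.restrict B), 0 ≤ H z := by
    filter_upwards [ae_restrict_mem hB] with z hz
    have h1 := hE z.1 (hBE hz).1
    have h2 : 0 < tht m n K θ η τ z.1 := lt_of_lt_of_le (inv_pos.2 hc0) h1
    exact mul_nonneg (inv_nonneg.2 h2.le) (hG0 z)
  rw [integral_eq_lintegral_of_nonneg_ae hHnn hi.aestronglyMeasurable]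
  refine ENNReal.toReal_le_of_le_ofReal hcX ?_
  calc ∫⁻ z in B, ENNReal.ofReal (H z) ∂γ ≤ ∫⁻ z in B, ENNReal.ofReal c0 * G z ∂γ := by
        refine lintegral_mono_ae ?_
        filter_upwards [ae_restrict_mem hB] with z hz
        have h1 := hE z.1 (hBE hz).1
        have h2 : 0 < tht m n K θ η τ z.1 := lt_of_lt_of_le (inv_pos.2 hc0) h1
        have h3 : (tht m n K θ η τ z.1)⁻¹ ≤ c0 := by
          rw [inv_le_comm₀ h2 hc0]; exact h1
        simp only [hH]
        rw [ENNReal.ofReal_mul (inv_nonneg.2 h2.le)]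
        exact mul_le_mul' (ENNReal.ofReal_le_ofReal h3) (hGz z)
    _ = ENNReal.ofReal c0 * ∫⁻ z in B, G z ∂γ := lintegral_const_mul' _ _ ENNReal.ofReal_ne_top
    _ ≤ ENNReal.ofReal c0 * ENNReal.ofReal X := by
        gcongr
        exact (setLIntegral_le_lintegral _ _).trans hker
    _ = ENNReal.ofReal (c0 * X) := (ENNReal.ofReal_mul hc0.le).symm

theorem s42 (h : InS m n K θ δ) (hρ : CD m ρ ρ') (ho : Opt δ (dm ρ) (dm σ) γ φ ψ)
    {E : Set M} (hE : Good m n K θ E) {B : Set (M × M)} (hB : MeasurableSet B)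
    (hBE : B ⊆ E ×ˢ univ) {η : ℝ} (hη : 0 < η) {ε : ℝ} (hε : 0 < ε) :
    0 ≤ aS n K δ γ φ ρ' ∧ ∀ᶠ j in atTop,
    ∫ z in B, ((tht m n K θ η (tau j) z.1)⁻¹ * ∫ x in Metric.ball z.1 η, KH n K (θ z.1) (tau j) z.1 x
        * (cc δ x z.2 - φ x - ψ z.2) ∂m) ∂γ
      ≤ tau j / 2 * aS n K δ γ φ ρ' + ε * tau j := by
  haveI : SigmaFinite m := sigmaFinite_of_ball h.hN.fin
  haveI := prob_of_opt hρ ho
  have hδ : 0 ≤ δ := h.ok.1.le
  obtain ⟨C, hC0, hC⟩ := h.drift
  have hφc := cont_of_blip ho.adm.bl1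
  have hψc := cont_of_blip ho.adm.bl2
  obtain ⟨⟨Lψ, hLψ⟩, -⟩ := ho.adm.bl2
  obtain ⟨⟨Lφ, hLφ⟩, -⟩ := ho.adm.bl1
  set L : ℝ := √(2 * δ) + Lψ with hL
  have hL0 : 0 ≤ L := by positivity
  have hcL : ∀ x y y' : M, |cc δ x y - cc δ x y'| ≤ L * dist y y' := fun x y y' =>
    (cc_lip hδ x y y').trans (mul_le_mul_of_nonneg_right (by rw [hL]; linarith [Lψ.2])
      dist_nonneg)
  have hψL : ∀ y y', |ψ y - ψ y'| ≤ L * dist y y' := fun y y' => by
    have h1 := hLψ.dist_le_mul y y'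
    rw [Real.dist_eq] at h1
    refine h1.trans (mul_le_mul_of_nonneg_right ?_ dist_nonneg)
    rw [hL]; linarith [Real.sqrt_nonneg (2 * δ)]
  set D := ∫ z, cc δ z.1 z.2 ∂γ with hD
  set X : ℝ → ℝ := fun τ => τ / 2 * (n - 2 * K / 3 * D) + C * (τ * √τ)
        - ((∫ x, Q m τ ρ x * φ x ∂m) - ∫ x, ρ x * φ x ∂m) with hX
  have hX0 : ∀ τ, 0 ≤ τ → τ ≤ 1 → 0 ≤ X τ := fun τ h0 h1 =>
    drift_nonneg (driftHyp2 h hC hρ ho h0 h1) hL0 hcL hψL
  have hker : ∀ τ, 0 < τ → τ ≤ 1 → ∫⁻ z, ∫⁻ x, ENNReal.ofReal (kt2 n K θ η τ z.1 x *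
      (cc δ x z.2 - φ x - ψ z.2)) ∂m ∂γ ≤ ENNReal.ofReal (X τ) := fun τ h0 h1 =>
    drift_ker (driftHyp2 h hC hρ ho h0.le h1) (kerHyp2 h h0 h1 η) hL0 hcL hψL
  -- the limit
  have hQ0 : Q m 0 ρ = ρ := h.sg.zero ρ (mem2_of hρ.m1 hρ.mt)
  have hQ0' : Q m 0 ρ' = ρ' := h.sg.zero ρ' (mem2_of hρ.m1' hρ.mt')
  have hder := h.deriv ρ ρ' hρ φ hφc.measurable ⟨δ, ho.bdφ⟩ 0 le_rfl
  rw [hQ0'] at hder
  have hlim1 : Tendsto (fun j => (tau j)⁻¹ * ((∫ x, Q m (tau j) ρ x * φ x ∂m)
      - ∫ x, ρ x * φ x ∂m)) atTop (𝓝 (2⁻¹ * ∫ x, φ x * ρ' x ∂m)) := by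
    have h1 := (hasDerivWithinAt_iff_tendsto_slope' (s := Ioi (0 : ℝ)) (by simp)).1
      (hder.mono Ioi_subset_Ici_self)
    have h2 := h1.comp tau_tendsto
    refine h2.congr fun j => ?_
    simp only [Function.comp_apply, slope_def_field, sub_zero]
    rw [hQ0, div_eq_inv_mul]
    congr 1
    congr 1 <;> exact integral_congr_ae (Eventually.of_forall fun x => mul_comm _ _)
  have hlim2 : Tendsto (fun j => (tau j)⁻¹ * X (tau j)) atTop (𝓝 (aS n K δ γ φ ρ' / 2)) := by
    have h1 : Tendsto (fun j => C * √(tau j)) atTop (𝓝 (C * 0)) := by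
      refine Tendsto.const_mul C ?_
      have h2 : Tendsto (fun τ : ℝ => √τ) (𝓝 0) (𝓝 0) := by
        have := Real.continuous_sqrt.tendsto 0
        rwa [Real.sqrt_zero] at this
      exact h2.comp (tau_tendsto.mono_right nhdsWithin_le_nhds)
    have h3 := ((tendsto_const_nhds (x := 2⁻¹ * (n - 2 * K / 3 * D))).add h1).sub hlim1
    have e : 2⁻¹ * ((n : ℝ) - 2 * K / 3 * D) + C * 0 - 2⁻¹ * ∫ x, φ x * ρ' x ∂m
        = aS n K δ γ φ ρ' / 2 := by
      unfold aS; rw [← hD]; ring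
    rw [e] at h3
    refine h3.congr fun j => ?_
    have hj := tau_pos j
    simp only [hX]
    field_simp
  have ha : 0 ≤ aS n K δ γ φ ρ' / 2 := by
    refine ge_of_tendsto' hlim2 fun j => ?_
    exact mul_nonneg (inv_nonneg.2 (tau_pos j).le) (hX0 _ (tau_pos j).le (tau_le_one j))
  set a := aS n K δ γ φ ρ' / 2 with haa
  refine ⟨by linarith, ?_⟩
  set c0 := (a + ε) / (a + ε / 2) with hc0
  have hc00 : 0 < c0 := by positivity
  have hc0inv : c0⁻¹ = 1 - ε / 2 / (a + ε) := by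
    rw [hc0, inv_div]; field_simp; ring
  have hε' : 0 < ε / 2 / (a + ε) := by positivity
  filter_upwards [hE.unif η hη _ hε', hlim2.eventually_le_const
    (show a < a + ε / 2 by linarith)] with j h1 h2
  have hj := tau_pos j
  have h3 := bochner_le2 (m := m) (K := K) (θ := θ) (η := η) (n := n) (γ := γ) (fun x => (h.hN.θ_pos x).le) hj.le
    hc00 (hX0 _ hj.le (tau_le_one j)) hB hBE hφc hψc ho.adm.le (fun x hx => by
      have := (abs_le.1 (h1 x hx).1).1
      rw [hc0inv]; linarith) (hker _ hj (tau_le_one j))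
  refine h3.trans ?_
  have h4 : X (tau j) ≤ tau j * (a + ε / 2) := by
    rwa [inv_mul_le_iff₀ hj] at h2
  calc c0 * X (tau j) ≤ c0 * (tau j * (a + ε / 2)) := by gcongr
    _ = tau j * (a + ε) := by rw [hc0]; field_simp
    _ = tau j / 2 * aS n K δ γ φ ρ' + ε * tau j := by rw [haa]; ring

end main

/-- **Block S4.** -/
theorem blk_S4 : N2.Blk_S4.{u} := by
  intro M _ _ _ _ m n K θ δ h ρ ρ' σ σ' hρ hσ γ φ ψ ho E hE B hB hBE η hη ε hε
  exact (s42 h hρ ho hE hB hBE hη hε).2

end Vale.Agent.P233.N2.S4
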