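import Vale.Agent.P233.N2.H883.Bridge
import Vale.Agent.P233.N2.H994.RK9

/-! P233, stage 3: Theorem N with a density function is complete: `blk_N2 : CD.Blk_N2`. -/

set_option linter.all false

universe u

namespace Vale.Agent.P233.N2

/-- Theorem N with a density function. -/
theorem partN2 : PartN2.{u} := H883.partN2_of2 RA.blk_KA2 RA.blk_KA3

/-- the block `N2` of (3b). -/
theorem blk_N2 : CD.Blk_N2.{u} := H883.blk_N2_of2 RA.blk_KA2 RA.blk_KA3

end Vale.Agent.P233.N2
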