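import Vale.Agent.P233.N2.RA.IfHK
import Vale.Agent.P233.H183.Unit

/-! P233, stage 3, part N2: the minimal slope of a Lipschitz function is at most its local
Lipschitz constant. -/

set_option linter.all false

open MeasureTheory Filter Topology Set Metric
open scoped ENNReal NNReal MeasureTheory

universe u

namespace Vale.Agent.P233.N2

/-! ### measurability of the local Lipschitz constant (copied from `H825/RA4`) -/

section meas

variable {M : Type*} [MetricSpace M]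

theorem lsc_sup {F : M → ℝ} (hF : Continuous F) (r : ℝ) : LowerSemicontinuous fun x =>
    ⨆ y ∈ ball x r ∩ {x}ᶜ, ENNReal.ofReal (|F y - F x| / dist y x) := by
  intro x c hc
  change c < ⨆ y ∈ ball x r ∩ {x}ᶜ, ENNReal.ofReal (|F y - F x| / dist y x) at hc
  change ∀ᶠ x' in 𝓝 x, c < ⨆ y ∈ ball x' r ∩ {x'}ᶜ, ENNReal.ofReal (|F y - F x'| / dist y x')
  rw [lt_iSup_iff] at hc
  obtain ⟨y, hc⟩ := hc
  rw [lt_iSup_iff] at hc
  obtain ⟨hy, hc⟩ := hc
  have hyx : y ≠ x := hy.2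
  have h0 : dist y x ≠ 0 := (dist_pos.2 hyx).ne'
  have h1 : ContinuousAt (fun x' => ENNReal.ofReal (|F y - F x'| / dist y x')) x := by
    refine ENNReal.continuous_ofReal.continuousAt.comp ?_
    refine ContinuousAt.div ?_ ?_ h0
    · exact (continuous_const.sub hF).abs.continuousAt
    · exact (continuous_const.dist continuous_id).continuousAt
  have h2 : ∀ᶠ x' in 𝓝 x, c < ENNReal.ofReal (|F y - F x'| / dist y x') :=
    h1.eventually (lt_mem_nhds hc)
  have h3 : ∀ᶠ x' in 𝓝 x, dist y x' < r := by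
    have : Continuous fun x' => dist y x' := by fun_prop
    exact this.continuousAt.eventually (gt_mem_nhds hy.1)
  have h4 : ∀ᶠ x' in 𝓝 x, x' ≠ y := isOpen_ne.mem_nhds hyx.symm
  filter_upwards [h2, h3, h4] with x' e2 e3 e4
  refine lt_of_lt_of_le e2 ?_
  exact le_iSup₂_of_le y ⟨e3, fun h => e4 h.symm⟩ le_rfl

theorem lipAt_eq (F : M → ℝ) (x : M) : lipAt F x = ⨅ k : ℕ,
    ⨆ y ∈ ball x (1 / ((k : ℝ) + 1)) ∩ {x}ᶜ, ENNReal.ofReal (|F y - F x| / dist y x) := by
  unfold lipAt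
  rw [(nhdsWithin_hasBasis Metric.nhds_basis_ball_inv_nat_succ {x}ᶜ).limsup_eq_iInf_iSup]
  simp

theorem measurable_lipAt [MeasurableSpace M] [BorelSpace M] {F : M → ℝ} (hF : Continuous F) : Measurable (lipAt F) := by
  have h : lipAt F = fun x => ⨅ k : ℕ, ⨆ y ∈ ball x (1 / ((k : ℝ) + 1)) ∩ {x}ᶜ,
      ENNReal.ofReal (|F y - F x| / dist y x) := by
    ext x; exact lipAt_eq F x
  rw [h]
  exact Measurable.iInf fun k => (lsc_sup hF _).measurable

theorem lipAt_ne_top {F : M → ℝ} {K : ℝ≥0} (hK : LipschitzWith K F) (x : M) : lipAt F x ≠ ∞ := by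
  have h := (Met.lipAt_le_ofReal_iff (f := F) (x := x) K.2).2 (Met.LipBd.of_lipschitz hK x)
  exact ne_top_of_le_ne_top ENNReal.ofReal_ne_top h

end meas

variable {M : Type u} [MetricSpace M] [MeasurableSpace M] [BorelSpace M] {m : Measure M}

theorem good_lip (hfin : ∀ (x : M) (r : ℝ), m (Metric.ball x r) < ∞) {u : M → ℝ} {L : ℝ≥0}
    (hu : LipschitzWith L u) {x₀ : M} {R : ℝ} (hR : ∀ x, R ≤ dist x₀ x → u x = 0) :
    Met.Good m u fun x => (lipAt u x).toReal := by
  have h := Met.good_of_bounded_support hfin hu (x₀ := x₀) (R := R) (fun x hx => hR x (by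
    rw [Metric.mem_ball, not_lt, dist_comm] at hx; exact hx))
  refine ⟨h.1, h.2.1, ?_, ae_of_all _ fun x => ⟨ENNReal.toReal_nonneg, ?_⟩⟩
  · refine h.2.2.1.mono
      (measurable_lipAt hu.continuous).ennreal_toReal.aestronglyMeasurable ?_
    filter_upwards [h.2.2.2] with x hx
    rw [Real.norm_eq_abs, Real.norm_eq_abs, abs_of_nonneg hx.1]
    show |(lipAt u x).toReal| ≤ _
    rw [abs_of_nonneg ENNReal.toReal_nonneg]
    exact ENNReal.toReal_le_of_le_ofReal hx.1 hx.2
  · exact (ENNReal.ofReal_toReal (lipAt_ne_top hu x)).ge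

/-- `Γ(u,u) ≤ lip(u)²` for Lipschitz functions with bounded support -/
theorem Γ_cl_lip [SecondCountableTopology M]
    (hfin : ∀ (x : M) (r : ℝ), m (Metric.ball x r) < ∞) {u : M → ℝ} {L : ℝ≥0}
    (hu : LipschitzWith L u) {x₀ : M} {R : ℝ} (hR : ∀ x, R ≤ dist x₀ x → u x = 0) :
    ∀ᵐ x ∂m, (sob m).Γ (cl m u) (cl m u) x ≤ (lipAt u x).toReal ^ 2 := by
  have hW := H183.cl_mem_W hfin hu hR
  have h1 := ((good_lip hfin hu hR).rSlope.congr (H183.cl_cont (m := m) hu.continuous).symm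
    Filter.EventuallyEq.rfl).mslope_le
  filter_upwards [h1, sob_Γ_self_ae hW, slope_ae hW, (mem_sob_iff.1 hW).mslope_nonneg]
    with x a1 a2 a3 a4
  rw [a2, ← a3]
  rw [← a3] at a1 a4
  exact pow_le_pow_left₀ a4 a1 2

end Vale.Agent.P233.N2
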