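import Vale.Agent.P233.N2.Defs

/-! P233, stage 3, Theorem N with a density function: the blocks of part H (and S1). The kernels
have the pole `y` (the variable of `h`); `KH` is symmetric in `x`, `y` for a constant `θ`. -/

set_option linter.all false

open MeasureTheory Filter Topology Set
open scoped ENNReal NNReal MeasureTheory

universe u

namespace Vale.Agent.P233.N2

open Vale.Agent.P233.RA

/-! ### H: heat flow -/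

/-- H0: for `K > 0` the space is bounded (test (LC) with `η(g_p)`). -/
def Blk_H0 : Prop := ForN.{u} fun M _ _ m n K θ => 0 < K → ∃ R : ℝ, ∀ x y : M, dist x y ≤ R

/-- H1: conservation of mass (test (LC) with `w_p`, `δ → ∞`). -/
def Blk_H1 : Prop := ForN.{u} fun M _ _ m n K θ => ∀ t : ℝ, 0 ≤ t → ∀ f : M →ₘ[m] ℝ, MemLp f 2 m →
  MemLp f 1 m → I (Q m t f) = I f

/-- H2a: the heat flow is strongly continuous in `L¹` (on `L¹ ∩ L²`), and resolvents too. -/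
def Blk_H2a : Prop := ForN.{u} fun M _ _ m n K θ => ∀ f : M →ₘ[m] ℝ, MemLp f 2 m → MemLp f 1 m →
  Tendsto (fun t => ∫ x, |(Q m t f - f) x| ∂m) (𝓝[>] 0) (𝓝 0) ∧
  Tendsto (fun l => ∫ x, |((sob m).J l f - f) x| ∂m) (𝓝[>] 0) (𝓝 0)

/-- H2b: the class `𝒞` is stable under the flow and contains the resolvents of bounded
densities. -/
def Blk_H2b : Prop := ForN.{u} fun M _ _ m n K θ =>
  (∀ ρ ρ' : M →ₘ[m] ℝ, CD m ρ ρ' → ∀ t : ℝ, 0 ≤ t → CD m (Q m t ρ) (Q m t ρ')) ∧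
  (∀ h : M →ₘ[m] ℝ, 0 ≤ h → I h = 1 → MemLp h 1 m → MemLp h ∞ m → ∀ l : ℝ, 0 < l →
    CD m ((sob m).J l h) (l⁻¹ • ((sob m).J l h - h)))

/-- H2c: differentiability in `L¹` on the class `𝒞`. -/
def Blk_H2c : Prop := ForN.{u} fun M _ _ m n K θ => ∀ ρ ρ' : M →ₘ[m] ℝ, CD m ρ ρ' →
  Tendsto (fun t => ∫ x, |(t⁻¹ • (Q m t ρ - ρ) - (2 : ℝ)⁻¹ • ρ') x| ∂m) (𝓝[>] 0) (𝓝 0) ∧
  ∀ s t : ℝ, 0 ≤ s → 0 ≤ t → ∫ x, |(Q m t ρ - Q m s ρ) x| ∂m ≤ |t - s| / 2 * ∫ x, |ρ' x| ∂m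

/-- H3a: (LC) for all nonnegative Sobolev functions. -/
def Blk_H3a : Prop := ForN.{u} fun M _ _ m n K θ => ∀ (p : M) (δ : ℝ), 0 < δ → ∀ φ ∈ (sob m).W,
  0 ≤ φ → -I ((sob m).Γ (cl m (ww δ p)) φ) ≤
    ∫ x in {x | gg p x < δ}, (n - 2 * K / 3 * gg p x) * φ x ∂m

/-- H3b: the heat flow of `c(·,y)`: uniform first order upper bound. -/
def Blk_H3b : Prop := ForN.{u} fun M _ _ m n K θ => ∀ δ : ℝ, Okd M K δ → ∃ C : ℝ, 0 ≤ C ∧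
  ∀ t : ℝ, 0 ≤ t → t ≤ 1 → ∀ y : M, ∀ᵐ x ∂m,
    Q m t (cl m (ww δ y)) x ≤ ww δ y x + t / 2 * (n - 2 * K / 3 * cc δ x y) + C * (t * √t)

/-- H3c: bounded Lipschitz functions (with bounded support): `|Q_t f - f| ≤ C √t`. -/
def Blk_H3c : Prop := ForN.{u} fun M _ _ m n K θ => ∀ (L : ℝ≥0) (B : ℝ), ∃ C : ℝ, 0 ≤ C ∧
  ∀ f : M → ℝ, LipschitzWith L f → (∀ x, |f x| ≤ B) → BSup f → ∀ t : ℝ, 0 ≤ t → t ≤ 1 →
    ∀ᵐ x ∂m, |Q m t (cl m f) x - f x| ≤ C * √t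

/-- H4: Cheeger-Yau: `K̂_s ≤ p_s` in the weak sense. -/
def Blk_H4 : Prop := ForN.{u} fun M _ _ m n K θ => ∀ s : ℝ, 0 < s → s ≤ 1 → ∀ f h : M →ₘ[m] ℝ,
  0 ≤ f → 0 ≤ h → MemLp f 2 m → MemLp h 2 m →
    ∫⁻ x, ∫⁻ y, ENNReal.ofReal (f x * KH n K (θ y) s x y * h y) ∂m ∂m ≤
      ENNReal.ofReal (I (f * Q m s h))

/-- H5: the Davies inequality for a pair of potentials. -/
def Blk_H5 : Prop := ForN.{u} fun M _ _ m n K θ => ∀ φ ψ : M → ℝ, BLip φ → BLip ψ →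
  (∀ x y, φ x + ψ y ≤ dist x y ^ 2 / 2) → ∀ T : ℝ, 0 < T → ∀ f h : M →ₘ[m] ℝ,
  MemLp f 2 m → MemLp h 2 m →
    I ((cl m (fun x => Real.exp (φ x / T)) * f) * Q m T (cl m (fun x => Real.exp (ψ x / T)) * h))
      ≤ √(I (f ^ 2)) * √(I (h ^ 2))

/-- S1: the kernel inequality with potentials (from H4 and H5). -/
def Blk_S1 : Prop := ForN.{u} fun M _ _ m n K θ => ∀ φ ψ : M → ℝ, BLip φ → BLip ψ →
  (∀ x y, φ x + ψ y ≤ dist x y ^ 2 / 2) → ∀ T : ℝ, 0 < T → T ≤ 1 → ∀ f h : M →ₘ[m] ℝ,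
  0 ≤ f → 0 ≤ h → MemLp f 2 m → MemLp h 2 m → I (f ^ 2) ≤ 1 → I (h ^ 2) ≤ 1 →
    ∫⁻ x, ∫⁻ y, ENNReal.ofReal
      (Real.exp (φ x / T) * f x * KH n K (θ y) T x y * (Real.exp (ψ y / T) * h y)) ∂m ∂m ≤ 1

end Vale.Agent.P233.N2
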